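import Mathlib

namespace Vale.Agent.Results.P240.A_TrivialIntersectionSylow

variable {G : Type*} [Group G]

/-- `IsElemAb p E`: the subgroup `E` is a nonidentity elementary abelian `p`-subgroup: it is
not the trivial subgroup, it is commutative and every element has `p`-th power one. -/
def IsElemAb (p : ℕ) (E : Subgroup G) : Prop :=
  E ≠ ⊥ ∧ (∀ a ∈ E, ∀ b ∈ E, a * b = b * a) ∧ ∀ a ∈ E, a ^ p = 1

/-- `Joined p E F`: the two members `E`, `F` of the poset of nonidentity elementary abelian
`p`-subgroups are joined by a finite zigzag of inclusions inside that poset, that is, they lie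
in the same connected component of its order complex. -/
def Joined (p : ℕ) (E F : {E : Subgroup G // IsElemAb p E}) : Prop :=
  Relation.ReflTransGen
    (fun X Y : {E : Subgroup G // IsElemAb p E} => X.1 ≤ Y.1 ∨ Y.1 ≤ X.1) E F

section aux

variable [Finite G] {p : ℕ} [hp : Fact p.Prime]

omit [Finite G] hp in
lemma isPGroup_of_elemAb {E : Subgroup G} (hE : IsElemAb p E) : IsPGroup p E := by
  intro g
  refine ⟨1, ?_⟩
  have h := hE.2.2 g.1 g.2
  apply Subtype.ext
  simpa using h

omit [Finite G] hp in
/-- under the trivial intersection hypothesis a member of the poset lies in exactly one Sylow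
subgroup, and this Sylow subgroup is constant along zigzags -/
lemma joined_sylow
    (hTI : ∀ S S' : Sylow p G, S ≠ S' → (S : Subgroup G) ⊓ (S' : Subgroup G) = ⊥)
    {E F : {E : Subgroup G // IsElemAb p E}} (h : Joined p E F)
    (S : Sylow p G) (hS : E.1 ≤ S) : F.1 ≤ S := by
  have huniq : ∀ (X : {E : Subgroup G // IsElemAb p E}) (S S' : Sylow p G),
      X.1 ≤ S → X.1 ≤ S' → S = S' := by
    intro X S S' h1 h2
    by_contra hne
    have h3 : X.1 ≤ (S : Subgroup G) ⊓ (S' : Subgroup G) := le_inf h1 h2
    rw [hTI S S' hne] at h3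
    exact X.2.1 (le_bot_iff.1 h3)
  induction h with
  | refl => exact hS
  | @tail Y Z _ hstep ih =>
    rcases hstep with h1 | h1
    · -- Y ≤ Z: Z lies in some Sylow subgroup, which must be S
      obtain ⟨S', hS'⟩ := (isPGroup_of_elemAb Z.2).exists_le_sylow
      have : S = S' := huniq Y S S' ih (h1.trans hS')
      rw [this]
      exact hS'
    · exact h1.trans ih

lemma exists_elemAb_le (S : Sylow p G) (hdvd : p ∣ Nat.card G) :
    ∃ E : {E : Subgroup G // IsElemAb p E}, E.1 ≤ S := by
  have h1 : p ∣ Nat.card (S : Subgroup G) := S.dvd_card_of_dvd_card hdvd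
  obtain ⟨x, hx⟩ := exists_prime_orderOf_dvd_card' (G := (S : Subgroup G)) p h1
  have hx1 : (x : G) ^ p = 1 := by
    have : x ^ p = 1 := by
      have h0 := pow_orderOf_eq_one x
      rwa [hx] at h0
    have := congrArg (fun y : (S : Subgroup G) => (y : G)) this
    simpa using this
  have hxne : (x : G) ≠ 1 := by
    intro h
    have h2 : x = 1 := Subtype.ext h
    rw [h2, orderOf_one] at hx
    exact hp.out.one_lt.ne hx
  refine ⟨⟨Subgroup.zpowers (x : G), ?_, ?_, ?_⟩, ?_⟩
  · intro hbot
    exact hxne (Subgroup.zpowers_eq_bot.1 hbot)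
  · intro a ha b hb
    obtain ⟨m, rfl⟩ := Subgroup.mem_zpowers_iff.1 ha
    obtain ⟨n, rfl⟩ := Subgroup.mem_zpowers_iff.1 hb
    rw [← zpow_add, ← zpow_add, add_comm]
  · intro a ha
    obtain ⟨m, rfl⟩ := Subgroup.mem_zpowers_iff.1 ha
    rw [← zpow_natCast, ← zpow_mul, mul_comm, zpow_mul, zpow_natCast, hx1, one_zpow]
  · rw [Subgroup.zpowers_le]
    exact x.2

end aux

/-- Let `G` be a finite group and `p` a prime dividing its order such that distinct Sylow
`p`-subgroups of `G` intersect trivially, and suppose `G` has at least two Sylow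
`p`-subgroups. Then the poset of nonidentity elementary abelian `p`-subgroups of `G` is
disconnected: it has two members not joined by any zigzag of inclusions. -/
theorem result (G : Type*) [Group G] [Finite G] (p : ℕ) [Fact p.Prime]
    (hdvd : p ∣ Nat.card G)
    (hTI : ∀ S S' : Sylow p G, S ≠ S' → (S : Subgroup G) ⊓ (S' : Subgroup G) = ⊥)
    (S S' : Sylow p G) (hne : S ≠ S') :
    ∃ E F : {E : Subgroup G // IsElemAb p E}, ¬ Joined p E F := by
  obtain ⟨E, hE⟩ := exists_elemAb_le S hdvd
  obtain ⟨F, hF⟩ := exists_elemAb_le S' hdvd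
  refine ⟨E, F, fun hj => ?_⟩
  have h1 : F.1 ≤ S := joined_sylow hTI hj S hE
  have h2 : F.1 ≤ (S : Subgroup G) ⊓ (S' : Subgroup G) := le_inf h1 hF
  rw [hTI S S' hne] at h2
  exact F.2.1 (le_bot_iff.1 h2)

end Vale.Agent.Results.P240.A_TrivialIntersectionSylow
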